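import Mathlib

/-!
# Signed area formula (package UNI-AREA)

`area_signed`: for a map `f` between subsets of a finite dimensional real vector space with
derivative `f'` on a measurable set `s` there is an INTEGER valued function `N` (the signed number
of preimages) with `∫ x in s, det (f' x) * h (f x) = ∫ y, N y * h y` for every `h` for which the
left side is absolutely convergent.
-/

set_option autoImplicit false

open MeasureTheory Set Filter Function
open scoped Topology ENNReal NNReal

namespace Vale.Agent.P267.H607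

variable {E : Type*} [NormedAddCommGroup E] [NormedSpace ℝ E] [FiniteDimensional ℝ E]
  [MeasurableSpace E] [BorelSpace E]

/-- Countable decomposition into pieces on which a map with invertible derivative is injective. -/
theorem exists_inj_partition (f : E → E) (s : Set E) (f' : E → E →L[ℝ] E)
    (hf' : ∀ x ∈ s, HasFDerivWithinAt f (f' x) s x) (hd : ∀ x ∈ s, (f' x).det ≠ 0) :
    ∃ t : ℕ → Set E, Pairwise (Disjoint on t) ∧ (∀ n, MeasurableSet (t n)) ∧ (s ⊆ ⋃ n, t n) ∧
      ∀ n, InjOn f (s ∩ t n) := by
  classical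
  rcases subsingleton_or_nontrivial E with hE | hE
  · exact ⟨fun n => if n = 0 then univ else ∅, by
      intro i j hij
      by_cases hi : i = 0
      · have : j ≠ 0 := fun h => hij (hi.trans h.symm)
        simp [Function.onFun, hi, this]
      · simp [Function.onFun, hi], by
      intro n; by_cases h : n = 0 <;> simp [h], by
      intro x _
      exact mem_iUnion.2 ⟨0, by simp⟩, fun n => Set.injOn_of_injective (injective_of_subsingleton f)⟩
  · let r : (E →L[ℝ] E) → ℝ≥0 := fun A =>
      if h : A.det ≠ 0 then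
        ‖((A.toContinuousLinearEquivOfDetNeZero h).symm : E →L[ℝ] E)‖₊⁻¹ / 2 else 1
    have rpos : ∀ A, r A ≠ 0 := by
      intro A
      by_cases h : A.det ≠ 0
      · have h1 : r A = ‖((A.toContinuousLinearEquivOfDetNeZero h).symm : E →L[ℝ] E)‖₊⁻¹ / 2 :=
          dif_pos h
        rw [h1]
        have h2 := (A.toContinuousLinearEquivOfDetNeZero h).nnnorm_symm_pos
        exact (half_pos (inv_pos.2 h2)).ne'
      · have h1 : r A = 1 := dif_neg h
        rw [h1]; exact one_ne_zero
    obtain ⟨t, A, h1, h2, h3, h4, h5⟩ :=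
      exists_partition_approximatesLinearOn_of_hasFDerivWithinAt f s f' hf' r rpos
    refine ⟨t, h1, h2, h3, fun n => ?_⟩
    rcases s.eq_empty_or_nonempty with hs | hs
    · simp [hs]
    · obtain ⟨y, hy, hA⟩ := h5 hs n
      have hdet : (A n).det ≠ 0 := by rw [hA]; exact hd y hy
      have hr : r (A n) = ‖(((A n).toContinuousLinearEquivOfDetNeZero hdet).symm :
          E →L[ℝ] E)‖₊⁻¹ / 2 := dif_pos hdet
      have h6 : ApproximatesLinearOn f
          (((A n).toContinuousLinearEquivOfDetNeZero hdet : E ≃L[ℝ] E) : E →L[ℝ] E)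
          (s ∩ t n) (r (A n)) := by
        have := h4 n
        simpa using this
      refine h6.injOn (Or.inr ?_)
      rw [hr]
      exact NNReal.half_lt_self
        (inv_ne_zero ((A n).toContinuousLinearEquivOfDetNeZero hdet).nnnorm_symm_pos.ne')

omit [NormedAddCommGroup E] [NormedSpace ℝ E] [FiniteDimensional ℝ E] [BorelSpace E] in
/-- abstract summation step -/
theorem sum_step (μ : Measure E) (A : ℕ → Set E) (hA : ∀ k, MeasurableSet (A k)) (ε : ℕ → ℤ)
    (hε : ∀ k, |ε k| = 1) :
    ∃ N : E → ℤ, ∀ h : E → ℝ, (∀ k, IntegrableOn h (A k) μ) →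
      Summable (fun k => ∫ y in A k, |h y| ∂μ) →
      Integrable (fun y => (N y : ℝ) * h y) μ ∧
      HasSum (fun k => (ε k : ℝ) * ∫ y in A k, h y ∂μ) (∫ y, (N y : ℝ) * h y ∂μ) := by
  classical
  refine ⟨fun y => ∑ᶠ k, if y ∈ A k then ε k else 0, fun h hi hs => ?_⟩
  have hεr : ∀ k, |(ε k : ℝ)| = 1 := fun k => by
    have := hε k
    exact_mod_cast this
  set F : ℕ → E → ℝ := fun k => (A k).indicator (fun y => (ε k : ℝ) * h y) with hF
  have hFi : ∀ k, Integrable (F k) μ := fun k =>
    (integrable_indicator_iff (hA k)).2 ((hi k).const_mul _)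
  have hnorm : ∀ k y, ‖F k y‖ = (A k).indicator (fun y => |h y|) y := by
    intro k y
    by_cases hy : y ∈ A k
    · simp only [hF, indicator_of_mem hy, norm_mul, Real.norm_eq_abs, hεr, one_mul]
    · simp only [hF, indicator_of_notMem hy, norm_zero]
  have hFn : ∀ k, ∫ y, ‖F k y‖ ∂μ = ∫ y in A k, |h y| ∂μ := by
    intro k
    rw [← integral_indicator (hA k)]
    exact integral_congr_ae (ae_of_all _ (hnorm k))
  have hFsum : Summable fun k => ∫ y, ‖F k y‖ ∂μ := by simpa only [hFn] using hs
  have key := hasSum_integral_of_summable_integral_norm hFi hFsum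
  -- a.e. summability
  have hlin : ∑' k, ∫⁻ y, ‖F k y‖ₑ ∂μ ≠ ∞ := by
    have : ∀ k, ∫⁻ y, ‖F k y‖ₑ ∂μ = ENNReal.ofReal (∫ y, ‖F k y‖ ∂μ) := fun k =>
      (ofReal_integral_norm_eq_lintegral_enorm (hFi k)).symm
    simp only [this]
    rw [← ENNReal.ofReal_tsum_of_nonneg (fun k => integral_nonneg fun y => norm_nonneg _) hFsum]
    exact ENNReal.ofReal_ne_top
  have hmeas : ∀ k, AEMeasurable (fun y => ‖F k y‖ₑ) μ := fun k => (hFi k).1.enorm
  have hlin2 : ∫⁻ y, ∑' k, ‖F k y‖ₑ ∂μ ≠ ∞ := by rwa [lintegral_tsum hmeas]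
  have hae : ∀ᵐ y ∂μ, Summable fun k => F k y := by
    filter_upwards [ae_lt_top' (AEMeasurable.tsum hmeas) hlin2] with y hy
    have : Summable fun k => ‖F k y‖₊ := by
      rw [← ENNReal.tsum_coe_ne_top_iff_summable]
      exact hy.ne
    exact Summable.of_nnnorm this
  have hN : ∀ᵐ y ∂μ, ∑' k, F k y =
      ((∑ᶠ k, if y ∈ A k then ε k else 0 : ℤ) : ℝ) * h y := by
    filter_upwards [hae] with y hy
    by_cases h0 : h y = 0
    · rw [h0, mul_zero]
      have : ∀ k, F k y = 0 := fun k => by
        by_cases hk : y ∈ A k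
        · simp [hF, indicator_of_mem hk, h0]
        · simp [hF, indicator_of_notMem hk]
      simp [this]
    · have hfin : {k | y ∈ A k}.Finite := by
        have h1 : Tendsto (fun k => F k y) cofinite (𝓝 0) := hy.tendsto_cofinite_zero
        have h2 : ∀ᶠ k in cofinite, |F k y| < |h y| := by
          have := (h1.abs)
          rw [abs_zero] at this
          exact this.eventually_lt_const (abs_pos.2 h0)
        refine (eventually_cofinite.1 h2).subset fun k hk => ?_
        simp only [mem_ofPred_eq, not_lt] at hk ⊢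
        simp only [hF, indicator_of_mem hk, abs_mul, hεr, one_mul, le_refl]
      have hz : ∀ k ∉ hfin.toFinset, F k y = 0 := fun k hk => by
        have : y ∉ A k := by simpa using hk
        simp [hF, indicator_of_notMem this]
      rw [tsum_eq_sum hz]
      rw [finsum_eq_sum_of_support_subset (s := hfin.toFinset)]
      · push_cast
        rw [Finset.sum_mul]
        refine Finset.sum_congr rfl fun k hk => ?_
        have hk' : y ∈ A k := by simpa using hk
        simp [hF, indicator_of_mem hk', hk']
      · intro k hk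
        simp only [Function.mem_support, ne_eq, ite_eq_right_iff, Classical.not_imp] at hk
        simpa using hk.1
  have hint : Integrable (fun y => ((∑ᶠ k, if y ∈ A k then ε k else 0 : ℤ) : ℝ) * h y) μ := by
    have h1 : Integrable (fun y => ∑' k, F k y) μ := by
      refine ⟨?_, ?_⟩
      · have hlim : ∀ᵐ y ∂μ, Tendsto (fun n : ℕ => ∑ k ∈ Finset.range n, F k y) atTop
            (𝓝 (∑' k, F k y)) := by
          filter_upwards [hae] with y hy using hy.hasSum.tendsto_sum_nat
        exact aestronglyMeasurable_of_tendsto_ae atTop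
          (fun n => Finset.aestronglyMeasurable_fun_sum _ fun k _ => (hFi k).1) hlim
      · refine lt_of_le_of_lt (lintegral_mono_ae ?_) (lt_top_iff_ne_top.2 hlin2)
        filter_upwards [hae] with y hy
        exact enorm_tsum_le_tsum_enorm 
    exact h1.congr hN
  refine ⟨hint, ?_⟩
  have h3 : ∫ y, ((∑ᶠ k, if y ∈ A k then ε k else 0 : ℤ) : ℝ) * h y ∂μ =
      ∫ y, ∑' k, F k y ∂μ := integral_congr_ae (by filter_upwards [hN] with y hy using hy.symm)
  rw [h3]
  have h4 : (fun k => (ε k : ℝ) * ∫ y in A k, h y ∂μ) = fun k => ∫ y, F k y ∂μ := by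
    funext k
    rw [← integral_const_mul, ← integral_indicator (hA k)]
  rw [h4]
  exact key

/-- **Signed area formula.** -/
theorem area_signed (μ : Measure E) [μ.IsAddHaarMeasure] (f : E → E) (s : Set E)
    (hs : MeasurableSet s) (f' : E → E →L[ℝ] E)
    (hf' : ∀ x ∈ s, HasFDerivWithinAt f (f' x) s x) (hc : ContinuousOn f' s) :
    ∃ N : E → ℤ, ∀ h : E → ℝ, IntegrableOn (fun x => (f' x).det * h (f x)) s μ →
      Integrable (fun y => (N y : ℝ) * h y) μ ∧
      ∫ x in s, (f' x).det * h (f x) ∂μ = ∫ y, (N y : ℝ) * h y ∂μ := by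
  classical
  have hdc : ContinuousOn (fun x => (f' x).det) s :=
    ContinuousLinearMap.continuous_det.comp_continuousOn hc
  -- the parts where the determinant is positive / negative
  set sp : Set E := s ∩ (fun x => (f' x).det) ⁻¹' Ioi 0 with hsp
  set sm : Set E := s ∩ (fun x => (f' x).det) ⁻¹' Iio 0 with hsm
  have hspm : MeasurableSet sp := by
    obtain ⟨u, hu, he⟩ := continuousOn_iff'.1 hdc (Ioi 0) isOpen_Ioi
    rw [hsp, inter_comm, he]
    exact hu.measurableSet.inter hs
  have hsmm : MeasurableSet sm := by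
    obtain ⟨u, hu, he⟩ := continuousOn_iff'.1 hdc (Iio 0) isOpen_Iio
    rw [hsm, inter_comm, he]
    exact hu.measurableSet.inter hs
  set s' : Set E := sp ∪ sm with hs'
  have hs's : s' ⊆ s := union_subset inter_subset_left inter_subset_left
  have hs'm : MeasurableSet s' := hspm.union hsmm
  have hd' : ∀ x ∈ s', (f' x).det ≠ 0 := by
    rintro x (hx | hx)
    · exact ne_of_gt hx.2
    · exact ne_of_lt hx.2
  obtain ⟨t, ht1, ht2, ht3, ht4⟩ := exists_inj_partition f s' f'
    (fun x hx => (hf' x (hs's hx)).mono hs's) hd'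
  -- pieces: index `2 n` positive, `2 n + 1` negative
  let e : ℕ ≃ ℕ × Bool := Equiv.boolProdNatEquivNat.symm.trans (Equiv.prodComm _ _)
  let P : ℕ → Set E := fun k => if (e k).2 then sp ∩ t (e k).1 else sm ∩ t (e k).1
  let ε : ℕ → ℤ := fun k => if (e k).2 then 1 else -1
  have hε : ∀ k, |ε k| = 1 := fun k => by
    by_cases h : (e k).2 <;> simp [ε, h]
  have hPs : ∀ k, P k ⊆ s := fun k => by
    by_cases h : (e k).2
    · simp only [P, h, if_true]; exact inter_subset_left.trans inter_subset_left
    · simp only [P, h]; exact inter_subset_left.trans inter_subset_left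
  have hPs' : ∀ k, P k ⊆ s' ∩ t (e k).1 := fun k => by
    by_cases h : (e k).2
    · simp only [P, h, if_true]; exact inter_subset_inter_left _ subset_union_left
    · simp only [P, h]; exact inter_subset_inter_left _ subset_union_right
  have hPm : ∀ k, MeasurableSet (P k) := fun k => by
    by_cases h : (e k).2
    · simp only [P, h, if_true]; exact hspm.inter (ht2 _)
    · simp only [P, h]; exact hsmm.inter (ht2 _)
  have hPi : ∀ k, InjOn f (P k) := fun k => (ht4 (e k).1).mono (hPs' k)
  have hPf : ∀ k, ∀ x ∈ P k, HasFDerivWithinAt f (f' x) (P k) x := fun k x hx =>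
    (hf' x (hPs k hx)).mono (hPs k)
  have hPd : Pairwise (Disjoint on P) := by
    intro i j hij
    have hne : e i ≠ e j := fun h => hij (e.injective h)
    rw [Function.onFun, Set.disjoint_left]
    intro x hx hx'
    by_cases h1 : (e i).1 = (e j).1
    · have h2 : (e i).2 ≠ (e j).2 := fun h => hne (Prod.ext h1 h)
      by_cases hi : (e i).2 = true
      · have hj : (e j).2 = false := by
          rcases Bool.eq_false_or_eq_true (e j).2 with h | h
          · exact absurd (hi.trans h.symm) h2
          · exact h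
        simp only [P, hi, if_true] at hx
        simp only [P, hj] at hx'
        have a1 : (0 : ℝ) < (f' x).det := hx.1.2
        have a2 : (f' x).det < (0 : ℝ) := hx'.1.2
        exact lt_asymm a1 a2
      · have hi' : (e i).2 = false := by simpa using hi
        have hj : (e j).2 = true := by
          rcases Bool.eq_false_or_eq_true (e j).2 with h | h
          · exact h
          · exact absurd (hi'.trans h.symm) h2
        simp only [P, hi'] at hx
        simp only [P, hj, if_true] at hx'
        have a1 : (f' x).det < (0 : ℝ) := hx.1.2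
        have a2 : (0 : ℝ) < (f' x).det := hx'.1.2
        exact lt_asymm a1 a2
    · exact Set.disjoint_left.1 (ht1 h1) (hPs' i hx).2 (hPs' j hx').2
  have hPu : (⋃ k, P k) = s' := by
    apply subset_antisymm
    · exact iUnion_subset fun k => (hPs' k).trans inter_subset_left
    · intro x hx
      obtain ⟨n, hn⟩ := mem_iUnion.1 (ht3 hx)
      rcases hx with hx | hx
      · refine mem_iUnion.2 ⟨e.symm (n, true), ?_⟩
        simp only [P, Equiv.apply_symm_apply, if_true]
        exact ⟨hx, hn⟩
      · refine mem_iUnion.2 ⟨e.symm (n, false), ?_⟩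
        simp only [P, Equiv.apply_symm_apply]
        exact ⟨hx, hn⟩
  obtain ⟨N, hN⟩ := sum_step μ (fun k => f '' P k)
    (fun k => measurable_image_of_fderivWithin (hPm k) (hPf k) (hPi k)) ε hε
  refine ⟨N, fun h hh => ?_⟩
  have habs : ∀ k, ∀ x ∈ P k, |(f' x).det| = (ε k : ℝ) * (f' x).det := by
    intro k x hx
    by_cases hk : (e k).2 = true
    · simp only [P, hk, if_true] at hx
      have a1 : (0 : ℝ) < (f' x).det := hx.1.2
      simp [ε, hk, abs_of_pos a1]
    · have hk' : (e k).2 = false := by simpa using hk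
      simp only [P, hk'] at hx
      have a1 : (f' x).det < (0 : ℝ) := hx.1.2
      simp [ε, hk', abs_of_neg a1]
  have hεε : ∀ k, (ε k : ℝ) * (ε k : ℝ) = 1 := fun k => by
    by_cases h : (e k).2 <;> simp [ε, h]
  -- integrability on each piece
  have hik : ∀ k, IntegrableOn h (f '' P k) μ := by
    intro k
    rw [integrableOn_image_iff_integrableOn_abs_det_fderiv_smul μ (hPm k) (hPf k) (hPi k)]
    have h1 : IntegrableOn (fun x => (ε k : ℝ) * ((f' x).det * h (f x))) (P k) μ :=
      (hh.mono_set (hPs k)).const_mul _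
    refine h1.congr_fun (fun x hx => ?_) (hPm k)
    simp only [smul_eq_mul, habs k x hx]
    ring
  have hnk : ∀ k, ∫ y in f '' P k, |h y| ∂μ = ∫ x in P k, |(f' x).det * h (f x)| ∂μ := by
    intro k
    rw [integral_image_eq_integral_abs_det_fderiv_smul μ (hPm k) (hPf k) (hPi k)]
    refine setIntegral_congr_fun (hPm k) fun x _ => ?_
    simp only [smul_eq_mul, abs_mul]
  have hvk : ∀ k, (ε k : ℝ) * ∫ y in f '' P k, h y ∂μ = ∫ x in P k, (f' x).det * h (f x) ∂μ := by
    intro k
    rw [integral_image_eq_integral_abs_det_fderiv_smul μ (hPm k) (hPf k) (hPi k),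
      ← integral_const_mul]
    refine setIntegral_congr_fun (hPm k) fun x hx => ?_
    simp only [smul_eq_mul, habs k x hx]
    linear_combination ((f' x).det * h (f x)) * hεε k
  have hs'i : IntegrableOn (fun x => (f' x).det * h (f x)) s' μ := hh.mono_set hs's
  have hsum : Summable fun k => ∫ y in f '' P k, |h y| ∂μ := by
    simp only [hnk]
    have h2 : IntegrableOn (fun x => |(f' x).det * h (f x)|) (⋃ k, P k) μ := by
      rw [hPu]; exact hs'i.abs
    exact (hasSum_integral_iUnion hPm hPd h2).summable
  obtain ⟨r1, r2⟩ := hN h hik hsum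
  refine ⟨r1, ?_⟩
  have h3 : HasSum (fun k => ∫ x in P k, (f' x).det * h (f x) ∂μ)
      (∫ x in ⋃ k, P k, (f' x).det * h (f x) ∂μ) :=
    hasSum_integral_iUnion hPm hPd (by rw [hPu]; exact hs'i)
  have h4 : ∫ x in ⋃ k, P k, (f' x).det * h (f x) ∂μ = ∫ y, (N y : ℝ) * h y ∂μ := by
    refine h3.unique ?_
    have : (fun k => ∫ x in P k, (f' x).det * h (f x) ∂μ) =
        fun k => (ε k : ℝ) * ∫ y in f '' P k, h y ∂μ := by
      funext k; exact (hvk k).symm
    rw [this]; exact r2
  rw [← h4, hPu]
  -- outside `s'` the determinant vanishes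
  have h5 : ∫ x in s, (f' x).det * h (f x) ∂μ =
      ∫ x in s, s'.indicator (fun x => (f' x).det * h (f x)) x ∂μ := by
    refine setIntegral_congr_fun hs fun x hx => ?_
    by_cases hx' : x ∈ s'
    · simp only [indicator_of_mem hx']
    · simp only [indicator_of_notMem hx']
      have : (f' x).det = 0 := by
        by_contra h0
        rcases lt_or_gt_of_ne h0 with h1 | h1
        · exact hx' (Or.inr ⟨hx, h1⟩)
        · exact hx' (Or.inl ⟨hx, h1⟩)
      rw [this, zero_mul]
  rw [h5, setIntegral_indicator hs'm, inter_eq_self_of_subset_right hs's]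

end Vale.Agent.P267.H607
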