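import Mathlib

/-!
# A function with zero weak derivative on a convex open set is constant (package UNI-AREA)
-/

set_option autoImplicit false

open MeasureTheory Set Filter Function
open scoped Topology ENNReal NNReal ContDiff Convolution

namespace Vale.Agent.P267.H607

variable {E : Type*} [NormedAddCommGroup E] [NormedSpace ℝ E] [FiniteDimensional ℝ E]
  [MeasurableSpace E] [BorelSpace E]

/-- `g` has zero weak derivative in `U`. -/
def WeakDerivZero (μ : Measure E) (U : Set E) (g : E → ℝ) : Prop :=
  ∀ ψ : E → ℝ, ContDiff ℝ ∞ ψ → HasCompactSupport ψ → tsupport ψ ⊆ U →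
    ∀ v : E, ∫ x, g x * fderiv ℝ ψ x v ∂μ = 0

omit [NormedSpace ℝ E] [FiniteDimensional ℝ E] [MeasurableSpace E] [BorelSpace E] in
theorem tsupport_comp_sub (ψ : E → ℝ) (w : E) :
    tsupport (fun y => ψ (y - w)) = (fun y => y - w) ⁻¹' tsupport ψ := by
  have := tsupport_comp_eq_preimage (g := ψ) (Homeomorph.subRight w)
  exact this

omit [FiniteDimensional ℝ E] in
/-- translation invariance -/
theorem integral_translate (μ : Measure E) [IsLocallyFiniteMeasure μ] {U : Set E} {g : E → ℝ}
    (hg : LocallyIntegrableOn g U μ) (h : WeakDerivZero μ U g)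
    {ψ : E → ℝ} (hψ : ContDiff ℝ ∞ ψ) (hc : HasCompactSupport ψ) (v : E)
    (hs : ∀ t ∈ Icc (0 : ℝ) 1, ∀ y ∈ tsupport ψ, y + t • v ∈ U) :
    ∫ x, g x * ψ (x - v) ∂μ = ∫ x, g x * ψ x ∂μ := by
  classical
  -- compact set containing all supports
  set K : Set E := (fun p : ℝ × E => p.2 + p.1 • v) '' (Icc (0 : ℝ) 1 ×ˢ tsupport ψ) with hK
  have hKc : IsCompact K := (isCompact_Icc.prod hc.isCompact).image (by fun_prop)
  have hKU : K ⊆ U := by
    rintro _ ⟨⟨t, y⟩, ⟨ht, hy⟩, rfl⟩
    exact hs t ht y hy
  have hgK : IntegrableOn g K μ := hg.integrableOn_compact_subset hKU hKc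
  have hKm : MeasurableSet K := hKc.isClosed.measurableSet
  set G : E → ℝ := K.indicator g with hG
  have hGi : Integrable G μ := (integrable_indicator_iff hKm).2 hgK
  have hzero : ∀ t ∈ Icc (0 : ℝ) 1, ∀ y ∉ K, y - t • v ∉ tsupport ψ := by
    intro t ht y hy hy'
    exact hy ⟨(t, y - t • v), ⟨ht, hy'⟩, by simp⟩
  have hψd : Differentiable ℝ ψ := hψ.differentiable (by norm_num)
  have hfc : Continuous (fderiv ℝ ψ) := hψ.continuous_fderiv (by norm_num)
  have hfs : HasCompactSupport (fderiv ℝ ψ) := hc.fderiv (𝕜 := ℝ)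
  obtain ⟨C, hC⟩ := hfc.bounded_above_of_compact_support hfs
  obtain ⟨C0, hC0⟩ := hψ.continuous.bounded_above_of_compact_support hc
  -- derivative of the family
  set F : ℝ → E → ℝ := fun t y => G y * ψ (y - t • v) with hF
  set F' : ℝ → E → ℝ := fun t y => G y * -(fderiv ℝ ψ (y - t • v) v) with hF'
  have hderiv : ∀ t, HasDerivAt (fun t => ∫ y, F t y ∂μ) (∫ y, F' t y ∂μ) t := by
    intro t
    refine (hasDerivAt_integral_of_dominated_loc_of_deriv_le (s := univ) (F := F) (F' := F')
      (bound := fun y => |G y| * (C * ‖v‖)) univ_mem ?_ ?_ ?_ ?_ ?_ ?_).2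
    · refine Eventually.of_forall fun s => ?_
      exact hGi.1.mul (hψ.continuous.comp (by fun_prop)).aestronglyMeasurable
    · refine hGi.mul_of_top_left ?_ 
      refine memLp_top_of_bound (hψ.continuous.comp (by fun_prop)).aestronglyMeasurable C0 ?_
      exact ae_of_all _ fun y => hC0 _
    · refine hGi.1.mul ?_
      refine Continuous.aestronglyMeasurable ?_
      exact ((hfc.comp (by fun_prop : Continuous fun y : E => y - t • v)).clm_apply
        continuous_const).neg
    · refine ae_of_all _ fun y s _ => ?_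
      rw [hF', norm_mul, norm_neg, Real.norm_eq_abs (G y)]
      refine mul_le_mul_of_nonneg_left ?_ (abs_nonneg _)
      exact (ContinuousLinearMap.le_opNorm _ _).trans
        (mul_le_mul_of_nonneg_right (hC _) (norm_nonneg _))
    · exact (hGi.abs).mul_const _
    · refine ae_of_all _ fun y s _ => ?_
      have h1 : HasDerivAt (fun s : ℝ => y - s • v) (-v) s := by
        have := ((hasDerivAt_id s).smul_const v).const_sub y
        simpa using this
      have h2 := (hψd (y - s • v)).hasFDerivAt.comp_hasDerivAt s h1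
      have h3 := h2.const_mul (G y)
      simpa [hF, hF', Function.comp_def, map_neg] using h3
  have hd0 : ∀ t ∈ Icc (0 : ℝ) 1, ∫ y, F' t y ∂μ = 0 := by
    intro t ht
    have h1 := h (fun y => ψ (y - t • v)) (hψ.comp (by fun_prop))
      (hc.comp_homeomorph (Homeomorph.subRight (t • v))) (by
        rw [tsupport_comp_sub]
        intro y hy
        by_contra hyU
        exact hzero t ht y (fun hyK => hyU (hKU hyK)) hy) v
    have h2 : ∀ y, F' t y = -(g y * fderiv ℝ (fun y => ψ (y - t • v)) y v) := by
      intro y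
      have h3 : fderiv ℝ (fun y => ψ (y - t • v)) y = fderiv ℝ ψ (y - t • v) := by
        rw [fderiv_comp_sub]
      rw [h3]
      by_cases hy : y ∈ K
      · simp only [hF', hG, indicator_of_mem hy]; ring
      · have h4 : fderiv ℝ ψ (y - t • v) = 0 := by
          have := hzero t ht y hy
          exact image_eq_zero_of_notMem_tsupport (fun h5 => this (tsupport_fderiv_subset ℝ h5))
        simp only [hF', hG, indicator_of_notMem hy, h4]; simp
    simp only [h2, integral_neg, h1, neg_zero]
  have hconst := constant_of_has_deriv_right_zero (f := fun t => ∫ y, F t y ∂μ) (a := 0) (b := 1)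
    (fun t _ => (hderiv t).continuousAt.continuousWithinAt)
    (fun t ht => by
      have := (hderiv t).hasDerivWithinAt (s := Ici t)
      rwa [hd0 t (Ico_subset_Icc_self ht)] at this) 1 (by simp)
  have e1 : ∀ t ∈ Icc (0 : ℝ) 1, ∫ y, F t y ∂μ = ∫ y, g y * ψ (y - t • v) ∂μ := by
    intro t ht
    refine integral_congr_ae (ae_of_all _ fun y => ?_)
    by_cases hy : y ∈ K
    · simp only [hF, hG, indicator_of_mem hy]
    · have h4 : ψ (y - t • v) = 0 := image_eq_zero_of_notMem_tsupport (hzero t ht y hy)
      simp only [hF, h4, mul_zero]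
  have e2 := e1 1 (by simp)
  have e3 := e1 0 (by simp)
  simp only [one_smul, zero_smul, sub_zero] at e2 e3
  rw [← e2, ← e3]
  exact hconst

omit [MeasurableSpace E] [BorelSpace E] in
/-- compact exhaustion of an open set -/
theorem exists_exhaustion {U : Set E} (hU : IsOpen U) :
    ∃ Q : ℕ → Set E, (∀ k, IsCompact (Q k)) ∧ (∀ k, Q k ⊆ U) ∧
      ∀ S : Set E, IsCompact S → S ⊆ U → ∃ k, S ⊆ Q k := by
  have : ProperSpace E := FiniteDimensional.proper_real E
  have : LocallyCompactSpace U := hU.locallyCompactSpace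
  let K : CompactExhaustion U := default
  refine ⟨fun k => Subtype.val '' (K k), fun k => (K.isCompact k).image continuous_subtype_val,
    fun k => by rintro _ ⟨x, _, rfl⟩; exact x.2, fun S hS hSU => ?_⟩
  have h1 : IsCompact (Subtype.val ⁻¹' S : Set U) := by
    rw [Subtype.isCompact_iff]
    rw [Subtype.image_preimage_coe, inter_eq_self_of_subset_right hSU]
    exact hS
  obtain ⟨k, hk⟩ := K.exists_superset_of_isCompact h1
  exact ⟨k, fun x hx => ⟨⟨x, hSU hx⟩, hk (by simpa using hx), rfl⟩⟩

/-- A locally integrable function with zero weak derivative on a convex open set is a.e. constant. -/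
theorem ae_const_of_weakDerivZero (μ : Measure E) [μ.IsAddHaarMeasure] {U : Set E}
    (hU : IsOpen U) (hconv : Convex ℝ U) {g : E → ℝ} (hg : LocallyIntegrableOn g U μ)
    (h : WeakDerivZero μ U g) : ∃ c : ℝ, ∀ᵐ x ∂μ, x ∈ U → g x = c := by
  classical
  rcases U.eq_empty_or_nonempty with hUe | hUne
  · exact ⟨0, by simp [hUe]⟩
  obtain ⟨Q, hQc, hQU, hQ⟩ := exists_exhaustion hU
  -- bumps
  let φ : ℕ → ContDiffBump (0 : E) := fun i =>
    { rIn := 1 / ((i : ℝ) + 1), rOut := 2 / ((i : ℝ) + 1), rIn_pos := by positivity,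
      rIn_lt_rOut := by
        have : (0 : ℝ) < (i : ℝ) + 1 := by positivity
        exact (div_lt_div_iff_of_pos_right this).2 (by norm_num) }
  have hφ0 : Tendsto (fun i => (φ i).rOut) atTop (𝓝 0) := by
    have := (tendsto_one_div_add_atTop_nhds_zero_nat (𝕜 := ℝ)).const_mul 2
    simpa [φ, div_eq_mul_inv] using this
  have hφK : ∀ᶠ i in atTop, (φ i).rOut ≤ 2 * (φ i).rIn := by
    refine Eventually.of_forall fun i => le_of_eq ?_
    simp only [φ]; ring
  have hgk : ∀ k, LocallyIntegrable ((Q k).indicator g) μ := fun k =>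
    ((integrable_indicator_iff (hQc k).isClosed.measurableSet).2
      (hg.integrableOn_compact_subset (hQU k) (hQc k))).locallyIntegrable
  have hae : ∀ᵐ x ∂μ, ∀ k, Tendsto (fun i => ((φ i).normed μ ⋆[ContinuousLinearMap.lsmul ℝ ℝ, μ]
      (Q k).indicator g) x) atTop (𝓝 ((Q k).indicator g x)) :=
    ae_all_iff.2 fun k => ContDiffBump.ae_convolution_tendsto_right_of_locallyIntegrable hφ0 hφK
      (hgk k)
  -- two good points have equal values
  have key : ∀ x ∈ U, ∀ y ∈ U,
      (∀ k, Tendsto (fun i => ((φ i).normed μ ⋆[ContinuousLinearMap.lsmul ℝ ℝ, μ]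
        (Q k).indicator g) x) atTop (𝓝 ((Q k).indicator g x))) →
      (∀ k, Tendsto (fun i => ((φ i).normed μ ⋆[ContinuousLinearMap.lsmul ℝ ℝ, μ]
        (Q k).indicator g) y) atTop (𝓝 ((Q k).indicator g y))) → g x = g y := by
    intro x hx y hy hx' hy'
    have : ProperSpace E := FiniteDimensional.proper_real E
    have hseg : IsCompact (segment ℝ x y) := by
      rw [segment_eq_image]
      exact isCompact_Icc.image (by fun_prop)
    obtain ⟨δ, hδ, hδU⟩ := hseg.exists_cthickening_subset_open hU (hconv.segment_subset hx hy)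
    obtain ⟨k, hk⟩ := hQ _ hseg.cthickening hδU
    have hxQ : x ∈ Q k := hk (Metric.self_subset_cthickening _ (left_mem_segment ℝ x y))
    have hyQ : y ∈ Q k := hk (Metric.self_subset_cthickening _ (right_mem_segment ℝ x y))
    have h1 := hx' k
    have h2 := hy' k
    rw [indicator_of_mem hxQ] at h1
    rw [indicator_of_mem hyQ] at h2
    refine tendsto_nhds_unique h1 (h2.congr' ?_)
    filter_upwards [hφ0.eventually (gt_mem_nhds hδ)] with i hi
    -- write both convolutions as integrals against a translate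
    have hform : ∀ z ∈ segment ℝ x y, ((φ i).normed μ ⋆[ContinuousLinearMap.lsmul ℝ ℝ, μ]
        (Q k).indicator g) z = ∫ w, g w * (φ i).normed μ (z - w) ∂μ := by
      intro z hz
      rw [convolution_lsmul_swap]
      refine integral_congr_ae (ae_of_all _ fun w => ?_)
      by_cases hw : w ∈ Q k
      · simp only [indicator_of_mem hw, smul_eq_mul]; ring
      · have : (φ i).normed μ (z - w) = 0 := by
          by_contra hne
          have h3 : z - w ∈ Function.support ((φ i).normed μ) := hne
          rw [ContDiffBump.support_normed_eq, Metric.mem_ball, dist_zero_right] at h3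
          refine hw (hk ?_)
          refine Metric.mem_cthickening_of_dist_le w z δ _ hz ?_
          rw [dist_comm, dist_eq_norm]
          exact (h3.trans hi).le
        simp only [this, zero_smul, mul_zero]
    rw [hform x (left_mem_segment ℝ x y), hform y (right_mem_segment ℝ x y)]
    -- translation from `y` to `x`
    have h4 := integral_translate μ hg h (ψ := fun w => (φ i).normed μ (y - w))
      ((φ i).contDiff_normed.comp (by fun_prop))
      ((φ i).hasCompactSupport_normed.comp_homeomorph (Homeomorph.subLeft y)) (x - y) (by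
        intro t ht w hw
        refine hδU ?_
        have hw' : y - w ∈ tsupport ((φ i).normed μ) := by
          have := tsupport_comp_eq_preimage (g := (φ i).normed μ) (Homeomorph.subLeft y)
          rw [show (fun w => (φ i).normed μ (y - w)) = (φ i).normed μ ∘ (Homeomorph.subLeft y) from
            rfl, this] at hw
          exact hw
        rw [ContDiffBump.tsupport_normed_eq, Metric.mem_closedBall, dist_zero_right] at hw'
        refine Metric.mem_cthickening_of_dist_le (w + t • (x - y)) (y + t • (x - y)) δ _ ?_ ?_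
        · rw [segment_symm, segment_eq_image']
          exact ⟨t, ht, rfl⟩
        · rw [dist_comm, dist_eq_norm]
          have : y + t • (x - y) - (w + t • (x - y)) = y - w := by abel
          rw [this]
          exact hw'.trans hi.le)
    rw [← h4]
    refine integral_congr_ae (ae_of_all _ fun w => ?_)
    simp only
    congr 2
    abel
  -- pick a good point
  have hpos : μ U ≠ 0 := (hU.measure_pos μ hUne).ne'
  obtain ⟨x₀, hx₀U, hx₀⟩ : ∃ x₀ ∈ U, (∀ k, Tendsto (fun i => ((φ i).normed μ
      ⋆[ContinuousLinearMap.lsmul ℝ ℝ, μ] (Q k).indicator g) x₀) atTop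
        (𝓝 ((Q k).indicator g x₀))) := by
    by_contra hcon
    push Not at hcon
    apply hpos
    refine measure_mono_null ?_ hae
    intro x hx
    simp only [mem_compl_iff, mem_ofPred_eq, not_forall]
    exact hcon x hx
  refine ⟨g x₀, ?_⟩
  filter_upwards [hae] with x hx hxU
  exact key x hxU x₀ hx₀U hx hx₀

/-- integer valued version -/
theorem ae_const_int_of_weakDerivZero (μ : Measure E) [μ.IsAddHaarMeasure] {U : Set E}
    (hU : IsOpen U) (hconv : Convex ℝ U) {g : E → ℤ}
    (hg : LocallyIntegrableOn (fun x => (g x : ℝ)) U μ)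
    (h : WeakDerivZero μ U (fun x => (g x : ℝ))) : ∃ c : ℤ, ∀ᵐ x ∂μ, x ∈ U → g x = c := by
  rcases U.eq_empty_or_nonempty with hUe | hUne
  · exact ⟨0, by simp [hUe]⟩
  obtain ⟨c, hc⟩ := ae_const_of_weakDerivZero μ hU hconv hg h
  have hpos : μ U ≠ 0 := (hU.measure_pos μ hUne).ne'
  obtain ⟨x₀, hx₀U, hx₀⟩ : ∃ x₀ ∈ U, (g x₀ : ℝ) = c := by
    by_contra hcon
    push Not at hcon
    apply hpos
    refine measure_mono_null ?_ hc
    intro x hx
    simp only [mem_compl_iff, mem_ofPred_eq, Classical.not_imp]
    exact ⟨hx, hcon x hx⟩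
  refine ⟨g x₀, ?_⟩
  filter_upwards [hc] with x hx hxU
  have := hx hxU
  rw [← hx₀] at this
  exact_mod_cast this

end Vale.Agent.P267.H607
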